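import Vale.Agent.H21.LBM.LM

/-!
# P227: logarithmic Minkowski inequality for symmetric polytopes with at most `n + 1` pairs of facets

Dimension `n = m + 1`, normals `u_0, …, u_{n}` (`n + 1 = m + 2` of them).
-/

open MeasureTheory Set Filter Topology

namespace Vale.Agent.Results.P227.FewFacets

/-- the inner product of `ℝ^n` -/
def ip {n : ℕ} (v x : Fin n → ℝ) : ℝ := ∑ k, v k * x k

/-- the symmetric polytope `{x : |⟨u_i, x⟩| ≤ h_i for all i}` -/
def Poly {n N : ℕ} (u : Fin N → Fin n → ℝ) (h : Fin N → ℝ) : Set (Fin n → ℝ) :=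
  {x | ∀ i, |ip (u i) x| ≤ h i}

/-- the part of the polytope over the `i`-th pair of facets: the points of the polytope at which
`|⟨u_k, x⟩| / h_k` is largest for `k = i` -/
def Cone {n N : ℕ} (u : Fin N → Fin n → ℝ) (h : Fin N → ℝ) (i : Fin N) : Set (Fin n → ℝ) :=
  {x | x ∈ Poly u h ∧ ∀ k, |ip (u k) x| / h k ≤ |ip (u i) x| / h i}

/-- the support function `h_L(v) = sup_{x ∈ L} ⟨v, x⟩` -/
noncomputable def supp {n : ℕ} (L : Set (Fin n → ℝ)) (v : Fin n → ℝ) : ℝ := sSup (ip v '' L)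

/-- the logarithmic combination `(1 - l) K +₀ l L` -/
def LogComb {n : ℕ} (l : ℝ) (K L : Set (Fin n → ℝ)) : Set (Fin n → ℝ) :=
  {x | ∀ v, ip v x ≤ supp K v ^ (1 - l) * supp L v ^ l}

/-- Lebesgue measure as a real number -/
noncomputable def vol {n : ℕ} (S : Set (Fin n → ℝ)) : ℝ := (volume S).toReal

lemma ip_neg_left {n : ℕ} (v x : Fin n → ℝ) : ip (-v) x = -ip v x := by
  simp [ip]

lemma ip_neg_right {n : ℕ} (v x : Fin n → ℝ) : ip v (-x) = -ip v x := by
  simp [ip]

lemma ip_sum {n N : ℕ} (α : Fin N → ℝ) (u : Fin N → Fin n → ℝ) (x : Fin n → ℝ) :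
    ip (∑ i, α i • u i) x = ∑ i, α i * ip (u i) x := by
  simp only [ip, Finset.sum_apply, Pi.smul_apply, smul_eq_mul, Finset.mul_sum, Finset.sum_mul]
  rw [Finset.sum_comm]
  exact Finset.sum_congr rfl fun i _ => Finset.sum_congr rfl fun k _ => by ring

lemma holder {N : ℕ} (α h g : Fin N → ℝ) (hh : ∀ i, 0 < h i) (hg : ∀ i, 0 < g i) {l : ℝ}
    (hl0 : 0 < l) (hl1 : l < 1) :
    ∑ i, |α i| * (h i ^ (1 - l) * g i ^ l) ≤ (∑ i, |α i| * h i) ^ (1 - l) *
      (∑ i, |α i| * g i) ^ l := by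
  have hl : 0 < 1 - l := by linarith
  by_cases h0 : ∀ i, α i = 0
  · simp only [h0, abs_zero, zero_mul, Finset.sum_const_zero]
    rw [Real.zero_rpow hl.ne']
    simp
  push Not at h0
  obtain ⟨i0, hi0⟩ := h0
  have hpos : ∀ f : Fin N → ℝ, (∀ i, 0 < f i) → 0 < ∑ i, |α i| * f i := by
    intro f hf
    apply Finset.sum_pos' (fun i _ => mul_nonneg (abs_nonneg _) (hf i).le)
    exact ⟨i0, Finset.mem_univ _, mul_pos (abs_pos.2 hi0) (hf i0)⟩
  set H := ∑ i, |α i| * h i with hH
  set G := ∑ i, |α i| * g i with hG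
  have hH0 : 0 < H := hpos h hh
  have hG0 : 0 < G := hpos g hg
  have h1 : ∀ i, |α i| * (h i ^ (1 - l) * g i ^ l) ≤
      H ^ (1 - l) * G ^ l * ((1 - l) * (|α i| * h i) / H + l * (|α i| * g i) / G) := by
    intro i
    have h2 := Real.geom_mean_le_arith_mean2_weighted hl.le hl0.le
      (div_pos (hh i) hH0).le (div_pos (hg i) hG0).le (by ring)
    rw [Real.div_rpow (hh i).le hH0.le, Real.div_rpow (hg i).le hG0.le] at h2
    have h3 : 0 < H ^ (1 - l) * G ^ l := by positivity
    have h4 : h i ^ (1 - l) * g i ^ l =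
        H ^ (1 - l) * G ^ l * (h i ^ (1 - l) / H ^ (1 - l) * (g i ^ l / G ^ l)) := by
      field_simp
    rw [h4]
    calc |α i| * (H ^ (1 - l) * G ^ l * (h i ^ (1 - l) / H ^ (1 - l) * (g i ^ l / G ^ l)))
        ≤ |α i| * (H ^ (1 - l) * G ^ l * ((1 - l) * (h i / H) + l * (g i / G))) := by gcongr
      _ = _ := by ring
  calc ∑ i, |α i| * (h i ^ (1 - l) * g i ^ l)
      ≤ ∑ i, H ^ (1 - l) * G ^ l * ((1 - l) * (|α i| * h i) / H + l * (|α i| * g i) / G) :=
        Finset.sum_le_sum fun i _ => h1 i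
    _ = H ^ (1 - l) * G ^ l * ((1 - l) * H / H + l * G / G) := by
        rw [← Finset.mul_sum, Finset.sum_add_distrib, ← Finset.sum_div, ← Finset.sum_div,
          ← Finset.mul_sum, ← Finset.mul_sum]
    _ = _ := by
        rw [mul_div_cancel_right₀ _ hH0.ne', mul_div_cancel_right₀ _ hG0.ne']
        ring

lemma supp_le {n N : ℕ} (u : Fin N → Fin n → ℝ) (h : Fin N → ℝ) (hh : ∀ i, 0 < h i)
    (i : Fin N) (σ : ℝ) (hσ : |σ| = 1) :
    0 ≤ supp (Poly u h) (σ • u i) ∧ supp (Poly u h) (σ • u i) ≤ h i := by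
  have hb : ∀ y ∈ ip (σ • u i) '' Poly u h, y ≤ h i := by
    rintro _ ⟨x, hx, rfl⟩
    have e : ip (σ • u i) x = σ * ip (u i) x := by
      simp only [ip, Pi.smul_apply, smul_eq_mul, Finset.mul_sum]
      exact Finset.sum_congr rfl fun k _ => by ring
    rw [e]
    calc σ * ip (u i) x ≤ |σ * ip (u i) x| := le_abs_self _
      _ = |ip (u i) x| := by rw [abs_mul, hσ, one_mul]
      _ ≤ h i := hx i
  have h0 : (0 : Fin n → ℝ) ∈ Poly u h := by
    intro i
    simp only [ip, Pi.zero_apply, mul_zero, Finset.sum_const_zero, abs_zero]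
    exact (hh i).le
  have h0' : (0 : ℝ) ∈ ip (σ • u i) '' Poly u h := ⟨0, h0, by simp [ip]⟩
  exact ⟨le_csSup ⟨h i, hb⟩ h0', csSup_le ⟨0, h0'⟩ hb⟩

lemma logComb_eq {m : ℕ} (u : Fin (m + 2) → Fin (m + 1) → ℝ) (h g : Fin (m + 2) → ℝ)
    (hh : ∀ i, 0 < h i) (hg : ∀ i, 0 < g i) {l : ℝ} (hl0 : 0 < l) (hl1 : l < 1)
    (hfan : ∀ v : Fin (m + 1) → ℝ, ∃ α : Fin (m + 2) → ℝ, v = ∑ i, α i • u i ∧
      supp (Poly u h) v = ∑ i, |α i| * h i ∧ supp (Poly u g) v = ∑ i, |α i| * g i) :
    LogComb l (Poly u h) (Poly u g) = Poly u (fun i => h i ^ (1 - l) * g i ^ l) := by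
  have hl : 0 < 1 - l := by linarith
  apply Subset.antisymm
  · intro x hx i
    have h1 : ∀ σ : ℝ, |σ| = 1 → σ * ip (u i) x ≤ h i ^ (1 - l) * g i ^ l := by
      intro σ hσ
      have e : ip (σ • u i) x = σ * ip (u i) x := by
        simp only [ip, Pi.smul_apply, smul_eq_mul, Finset.mul_sum]
        exact Finset.sum_congr rfl fun k _ => by ring
      rw [← e]
      refine (hx (σ • u i)).trans ?_
      obtain ⟨a1, a2⟩ := supp_le u h hh i σ hσ
      obtain ⟨b1, b2⟩ := supp_le u g hg i σ hσ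
      have := hh i
      exact mul_le_mul (Real.rpow_le_rpow a1 a2 hl.le) (Real.rpow_le_rpow b1 b2 hl0.le)
        (Real.rpow_nonneg b1 _) (by positivity)
    show |ip (u i) x| ≤ h i ^ (1 - l) * g i ^ l
    rw [abs_le']
    have h2 := h1 1 (by simp)
    have h3 := h1 (-1) (by simp)
    constructor <;> linarith
  · intro x hx v
    obtain ⟨α, hv, hK, hL⟩ := hfan v
    rw [hK, hL]
    refine le_trans ?_ (holder α h g hh hg hl0 hl1)
    rw [hv, ip_sum]
    refine Finset.sum_le_sum fun i _ => ?_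
    calc α i * ip (u i) x ≤ |α i * ip (u i) x| := le_abs_self _
      _ = |α i| * |ip (u i) x| := abs_mul _ _
      _ ≤ |α i| * (h i ^ (1 - l) * g i ^ l) := mul_le_mul_of_nonneg_left (hx i) (abs_nonneg _)

/-- Let `u_0, …, u_n` be `n + 1` pairwise non-parallel vectors spanning `ℝ^n` (`n = m + 1`) and
`K = {x : |⟨u_i,x⟩| ≤ h_i}` a symmetric polytope with at most `n + 1` pairs of facets.
(1) The logarithmic Minkowski inequality holds for `K` and every compact origin-symmetric `L` with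
nonempty interior.
(2) Log-concavity of the volume of the polytopes in the logarithms of the `h_i`.
(3) The logarithmic Brunn-Minkowski inequality for two such polytopes `K`, `L` whose support
functions are given by common coefficients in every direction. -/
theorem result (m : ℕ) (u : Fin (m + 2) → Fin (m + 1) → ℝ)
    (hspan : Submodule.span ℝ (Set.range u) = ⊤)
    (hpar : ∀ i k, i ≠ k → LinearIndependent ℝ ![u i, u k])
    (h : Fin (m + 2) → ℝ) (hh : ∀ i, 0 < h i) :
    (∀ L : Set (Fin (m + 1) → ℝ), IsCompact L → (interior L).Nonempty → (∀ x ∈ L, -x ∈ L) →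
      vol (Poly u h) * Real.log (vol L / vol (Poly u h)) ≤
        ((m : ℝ) + 1) * ∑ i, vol (Cone u h i) * Real.log (supp L (u i) / h i)) ∧
    (∀ g : Fin (m + 2) → ℝ, (∀ i, 0 < g i) → ∀ l : ℝ, 0 ≤ l → l ≤ 1 →
      vol (Poly u h) ^ (1 - l) * vol (Poly u g) ^ l ≤
        vol (Poly u (fun i => h i ^ (1 - l) * g i ^ l))) ∧
    (∀ g : Fin (m + 2) → ℝ, (∀ i, 0 < g i) →
      (∀ v : Fin (m + 1) → ℝ, ∃ α : Fin (m + 2) → ℝ, v = ∑ i, α i • u i ∧
        supp (Poly u h) v = ∑ i, |α i| * h i ∧ supp (Poly u g) v = ∑ i, |α i| * g i) →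
      ∀ l : ℝ, 0 < l → l < 1 →
        vol (Poly u h) ^ (1 - l) * vol (Poly u g) ^ l ≤
          vol (LogComb l (Poly u h) (Poly u g))) := by
  refine ⟨?_, ?_, ?_⟩
  · intro L hLc hLi hLs
    obtain ⟨x0, hx0⟩ := hLi
    have hcont : ∀ v : Fin (m + 1) → ℝ, Continuous (ip v) := by
      intro v
      unfold ip
      fun_prop
    have hbdd : ∀ v : Fin (m + 1) → ℝ, BddAbove (ip v '' L) := fun v =>
      (hLc.image (hcont v)).bddAbove
    have hle : ∀ v : Fin (m + 1) → ℝ, ∀ x ∈ L, |ip v x| ≤ supp L v := by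
      intro v x hx
      rw [abs_le']
      refine ⟨le_csSup (hbdd v) ⟨x, hx, rfl⟩, ?_⟩
      rw [← ip_neg_right]
      exact le_csSup (hbdd v) ⟨-x, hLs x hx, rfl⟩
    have hu0 : ∀ i, u i ≠ 0 := by
      intro i h0
      obtain ⟨k, hk⟩ := exists_ne i
      have hli := LinearIndependent.pair_iff.1 (hpar i k hk.symm) 1 0 (by rw [h0]; simp)
      exact one_ne_zero hli.1
    have hpos : ∀ i, 0 < supp L (u i) := by
      intro i
      by_contra hneg
      push Not at hneg
      have hz : ∀ x ∈ L, ip (u i) x = 0 := by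
        intro x hx
        have := hle (u i) x hx
        have h2 : |ip (u i) x| ≤ 0 := this.trans hneg
        exact abs_eq_zero.1 (le_antisymm h2 (abs_nonneg _))
      have ht : ∀ᶠ t : ℝ in 𝓝 0, x0 + t • u i ∈ interior L := by
        have hc : ContinuousAt (fun t : ℝ => x0 + t • u i) 0 := by fun_prop
        apply hc.eventually
        simp only [zero_smul, add_zero]
        exact isOpen_interior.mem_nhds hx0
      have ht' : ∀ᶠ t : ℝ in 𝓝[>] 0, x0 + t • u i ∈ interior L := nhdsWithin_le_nhds ht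
      obtain ⟨t, ht1, ht2⟩ := (ht'.and self_mem_nhdsWithin).exists
      have h3 := hz _ (interior_subset ht1)
      have h4 := hz _ (interior_subset hx0)
      have h5 : ip (u i) (x0 + t • u i) = ip (u i) x0 + t * ip (u i) (u i) := by
        simp only [ip, Pi.add_apply, Pi.smul_apply, smul_eq_mul, Finset.mul_sum]
        rw [← Finset.sum_add_distrib]
        exact Finset.sum_congr rfl fun k _ => by ring
      have h6 : ip (u i) (u i) ≠ 0 := by
        intro h7
        apply hu0 i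
        funext k
        have h8 := (Finset.sum_eq_zero_iff_of_nonneg (fun k _ => mul_self_nonneg (u i k))).1 h7 k
          (Finset.mem_univ k)
        simpa using h8
      rw [h5, h4, zero_add] at h3
      exact (mul_ne_zero (ne_of_gt ht2) h6) h3
    have hL0 : volume L ≠ 0 := by
      intro h0
      have h1 : volume (interior L) = 0 := measure_mono_null interior_subset h0
      exact (isOpen_interior.measure_pos volume ⟨x0, hx0⟩).ne' h1
    exact Vale.Agent.H21.LBM.log_mink u hspan hpar h (fun i => supp L (u i)) hh hpos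
      (L := L) (fun x hx i => hle (u i) x hx) hL0
  · intro g hg l hl0 hl1
    rcases hl0.eq_or_lt with rfl | hl0
    · simp
    rcases hl1.eq_or_lt with rfl | hl1
    · simp
    exact Vale.Agent.H21.LBM.poly_lc u hspan h g hh hg hl0 hl1
  · intro g hg hfan l hl0 hl1
    rw [logComb_eq u h g hh hg hl0 hl1 hfan]
    exact Vale.Agent.H21.LBM.poly_lc u hspan h g hh hg hl0 hl1

end Vale.Agent.Results.P227.FewFacets
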